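import Mathlib

set_option autoImplicit false

namespace Crest.Agent.R71

open Finset
open Classical

/-- agreement set of two words -/
noncomputable def agr {U Q : Type} [Fintype U] (x α : U → Q) : Finset U :=
  univ.filter (fun u => x u = α u)

/-- agreement set of two words, restricted to a set of (position, letter) pairs -/
noncomputable def agrO {U Q : Type} [Fintype U] (Ω : Finset (U × Q)) (x α : U → Q) : Finset U :=
  univ.filter (fun u => x u = α u ∧ (u, α u) ∈ Ω)

@[simp] lemma mem_agr {U Q : Type} [Fintype U] (x α : U → Q) (u : U) :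
    u ∈ agr x α ↔ x u = α u := by simp [agr]

@[simp] lemma mem_agrO {U Q : Type} [Fintype U] (Ω : Finset (U × Q)) (x α : U → Q) (u : U) :
    u ∈ agrO Ω x α ↔ x u = α u ∧ (u, α u) ∈ Ω := by simp [agrO]

lemma greedy_aux {Λ C X : Type} [Fintype Λ] [Fintype C] (T : ℕ) (hT : Fintype.card Λ = 2 * T)
    (hTpos : 0 < T) (L : C → Finset Λ) (hL : ∀ c, T ≤ (L c).card) (α : C → X) (μ : C → ℝ)
    (hμ : ∀ c, 0 ≤ μ c) (ε : ℝ) (N : ℕ) :
    ∃ S : Finset (Λ × X), S.card ≤ N ∧
      ((∀ x, ∑ c, (if α c = x ∧ ¬ (∃ l ∈ L c, (l, α c) ∈ S) then μ c else 0) ≤ ε) ∨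
        (N : ℝ) * (ε / 2) ≤ ∑ c, (if (∃ l ∈ L c, (l, α c) ∈ S) then μ c else 0)) := by
  induction N with
  | zero =>
    refine ⟨∅, by simp, Or.inr ?_⟩
    simp
  | succ N ih =>
    obtain ⟨S, hS, h⟩ := ih
    by_cases hleft : ∀ x, ∑ c, (if α c = x ∧ ¬ (∃ l ∈ L c, (l, α c) ∈ S) then μ c else 0) ≤ ε
    · exact ⟨S, hS.trans (Nat.le_succ _), Or.inl hleft⟩
    have hright := h.resolve_left hleft
    obtain ⟨x, hx⟩ := not_forall.1 hleft
    replace hx := not_le.1 hx
    set B : C → Prop := fun c => α c = x ∧ ¬ (∃ l ∈ L c, (l, α c) ∈ S) with hB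
    have hx' : ε < ∑ c, (if B c then μ c else 0) := by
      refine lt_of_lt_of_eq hx (Finset.sum_congr rfl fun c _ => ?_)
      exact if_congr Iff.rfl rfl rfl
    have hne : (univ : Finset Λ).Nonempty := by
      rw [← Finset.card_pos, Finset.card_univ, hT]; omega
    have havg : ∑ _l : Λ, (∑ c, (if B c then μ c else 0)) / 2 ≤
        ∑ l : Λ, ∑ c, (if B c ∧ l ∈ L c then μ c else 0) := by
      rw [Finset.sum_comm, Finset.sum_const, Finset.card_univ, hT, nsmul_eq_mul]
      have : ((2 * T : ℕ) : ℝ) * ((∑ c, (if B c then μ c else 0)) / 2)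
          = ∑ c, (T : ℝ) * (if B c then μ c else 0) := by
        rw [← Finset.mul_sum]; push_cast; ring
      rw [this]
      refine Finset.sum_le_sum fun c _ => ?_
      by_cases hc : B c
      · simp only [hc, true_and, if_true]
        rw [← Finset.sum_filter]
        simp only [Finset.filter_mem_eq_inter, Finset.univ_inter, Finset.sum_const, nsmul_eq_mul]
        exact mul_le_mul_of_nonneg_right (by exact_mod_cast hL c) (hμ c)
      · simp [hc]
    obtain ⟨l, -, hl⟩ := Finset.exists_le_of_sum_le hne havg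
    refine ⟨insert (l, x) S, (Finset.card_insert_le _ _).trans (by omega), Or.inr ?_⟩
    have key : ∑ c, (if (∃ l' ∈ L c, (l', α c) ∈ S) then μ c else 0) +
        ∑ c, (if B c ∧ l ∈ L c then μ c else 0) ≤
        ∑ c, (if (∃ l' ∈ L c, (l', α c) ∈ insert (l, x) S) then μ c else 0) := by
      rw [← Finset.sum_add_distrib]
      refine Finset.sum_le_sum fun c _ => ?_
      by_cases h1 : ∃ l' ∈ L c, (l', α c) ∈ S
      · have h2 : ¬ (B c ∧ l ∈ L c) := fun h => h.1.2 h1
        have h3 : ∃ l' ∈ L c, (l', α c) ∈ insert (l, x) S := by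
          obtain ⟨l', h4, h5⟩ := h1
          exact ⟨l', h4, Finset.mem_insert_of_mem h5⟩
        rw [if_pos h1, if_neg h2, if_pos h3]; simp
      · by_cases h2 : B c ∧ l ∈ L c
        · have h3 : ∃ l' ∈ L c, (l', α c) ∈ insert (l, x) S :=
            ⟨l, h2.2, by rw [h2.1.1]; exact Finset.mem_insert_self _ _⟩
          rw [if_neg h1, if_pos h2, if_pos h3]; simp
        · rw [if_neg h1, if_neg h2]
          split_ifs
          · simpa using hμ c
          · simp
    push_cast
    linarith

lemma greedy {Λ C X : Type} [Fintype Λ] [Fintype C] (T : ℕ) (hT : Fintype.card Λ = 2 * T)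
    (hTpos : 0 < T) (L : C → Finset Λ) (hL : ∀ c, T ≤ (L c).card) (α : C → X) (μ : C → ℝ)
    (hμ : ∀ c, 0 ≤ μ c) (hsum : ∑ c, μ c ≤ 1) (ε : ℝ) (N : ℕ) (hN : 1 < (N : ℝ) * (ε / 2)) :
    ∃ S : Finset (Λ × X), S.card ≤ N ∧
      ∀ x, ∑ c, (if α c = x ∧ ¬ (∃ l ∈ L c, (l, α c) ∈ S) then μ c else 0) ≤ ε := by
  obtain ⟨S, hS, h⟩ := greedy_aux T hT hTpos L hL α μ hμ ε N
  refine ⟨S, hS, h.resolve_right fun h' => ?_⟩
  have : ∑ c, (if (∃ l ∈ L c, (l, α c) ∈ S) then μ c else 0) ≤ ∑ c, μ c := by
    refine Finset.sum_le_sum fun c _ => ?_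
    split_ifs
    · exact le_rfl
    · exact hμ c
  linarith

/-- A level system. -/
structure Good (h D D' : ℕ) (ε : ℝ) (U I : Type) [Fintype U] (ℓ : I → Finset U → ℕ) : Prop where
  mono : ∀ k, Monotone (ℓ k)
  top : ∀ k, ℓ k univ = h
  low : ∀ A : Finset U, A.card < D → ∃ k, ℓ k A = 0
  junta : ∀ (Q C : Type) [Fintype C] (kk : C → I) (αα : C → U → Q) (μ : C → ℝ),
    (∀ c, 0 ≤ μ c) → ∑ c, μ c ≤ 1 → ∃ Ω : Finset (U × Q), Ω.card ≤ D' ∧ ∀ x : U → Q,
      ∑ c, (if ℓ (kk c) (agrO Ω x (αα c)) + 2 ≤ ℓ (kk c) (agr x (αα c)) then μ c else 0) ≤ ε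

/-- slice of a subset of a product -/
noncomputable def slice {Λ U : Type} [Fintype U] (A : Finset (Λ × U)) (l : Λ) : Finset U :=
  univ.filter (fun u => (l, u) ∈ A)

@[simp] lemma mem_slice {Λ U : Type} [Fintype U] (A : Finset (Λ × U)) (l : Λ) (u : U) :
    u ∈ slice A l ↔ (l, u) ∈ A := by simp [slice]

lemma card_eq_sum_slice {Λ U : Type} [Fintype Λ] [Fintype U] (A : Finset (Λ × U)) :
    A.card = ∑ l, (slice A l).card := by
  rw [Finset.card_eq_sum_card_fiberwise (f := Prod.fst) (t := univ) (by simp)]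
  refine Finset.sum_congr rfl fun l _ => ?_
  symm
  refine Finset.card_bij (fun u _ => (l, u)) ?_ ?_ ?_
  · intro u hu; simpa using hu
  · intro u _ v _ h; simpa using h
  · rintro ⟨l', u⟩ hp
    simp only [Finset.mem_filter] at hp
    obtain ⟨h1, rfl⟩ := hp
    exact ⟨u, by simpa using h1, rfl⟩

/-- the level function of the composed system -/
noncomputable def compL {Λ U I : Type} [Fintype Λ] [Fintype U] (T : ℕ) (ℓ : I → Finset U → ℕ)
    (k : {L : Finset Λ // T ≤ L.card} × (Λ → I)) (A : Finset (Λ × U)) : ℕ :=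
  (if A = univ then 1 else 0) + k.1.1.sup (fun l => ℓ (k.2 l) (slice A l))

lemma Good.comp {h D D' : ℕ} {ε : ℝ} {U I Λ : Type} [Fintype U] [Fintype Λ] [Nonempty I]
    {ℓ : I → Finset U → ℕ} (T N : ℕ) (hT : Fintype.card Λ = 2 * T) (hTpos : 0 < T) (hh : 0 < h)
    (hN : 1 < (N : ℝ) * (ε / 2 / 2))
    (G : Good h D D' (ε / 2 / (2 * T)) U I ℓ) :
    Good (h + 1) (T * D) (N * Fintype.card U + 2 * T * D') ε (Λ × U)
      ({L : Finset Λ // T ≤ L.card} × (Λ → I)) (compL T ℓ) := by
  have hne : ∀ k : {L : Finset Λ // T ≤ L.card}, k.1.Nonempty := fun k =>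
    Finset.card_pos.1 (lt_of_lt_of_le hTpos k.2)
  have hle : ∀ k A, ℓ k A ≤ h := fun k A => by
    rw [← G.top k]; exact G.mono k (Finset.subset_univ _)
  have hmono : ∀ k : {L : Finset Λ // T ≤ L.card} × (Λ → I), Monotone (compL T ℓ k) := by
    intro k A B hAB
    unfold compL
    apply add_le_add
    · by_cases hA : A = univ
      · have hB : B = univ := Finset.eq_univ_of_forall fun p => hAB (hA ▸ Finset.mem_univ p)
        simp [hA, hB]
      · simp [hA]
    · refine Finset.sup_mono_fun fun l _ => G.mono _ ?_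
      intro u hu
      simp only [mem_slice] at hu ⊢
      exact hAB hu
  have hslice_univ : ∀ l : Λ, slice (univ : Finset (Λ × U)) l = univ := fun l => by
    ext u; simp
  have htop : ∀ k : {L : Finset Λ // T ≤ L.card} × (Λ → I), compL T ℓ k univ = h + 1 := by
    intro k
    unfold compL
    simp only [if_true, hslice_univ, G.top]
    rw [Finset.sup_const (hne k.1)]; omega
  refine ⟨hmono, htop, ?_, ?_⟩
  · intro A hA
    set Big : Finset Λ := univ.filter (fun l => D ≤ (slice A l).card) with hBig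
    have h1 : Big.card * D ≤ A.card := by
      rw [card_eq_sum_slice]
      calc Big.card * D = ∑ _l ∈ Big, D := by simp
        _ ≤ ∑ l ∈ Big, (slice A l).card :=
          Finset.sum_le_sum fun l hl => (Finset.mem_filter.1 hl).2
        _ ≤ ∑ l, (slice A l).card := Finset.sum_le_sum_of_subset (Finset.subset_univ _)
    have h2 : Big.card < T := by
      by_contra h3
      push Not at h3
      have := Nat.mul_le_mul_right D h3
      omega
    have h3 : T ≤ (Bigᶜ).card := by
      rw [Finset.card_compl, hT]; omega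
    have h4 : ∀ l : Λ, ∃ k : I, l ∈ Bigᶜ → ℓ k (slice A l) = 0 := by
      intro l
      by_cases hl : l ∈ Bigᶜ
      · have : (slice A l).card < D := by
          simpa [hBig] using hl
        obtain ⟨k, hk⟩ := G.low _ this
        exact ⟨k, fun _ => hk⟩
      · exact ⟨Classical.arbitrary I, fun h => absurd h hl⟩
    choose κ hκ using h4
    refine ⟨(⟨Bigᶜ, h3⟩, κ), ?_⟩
    have hAne : A ≠ univ := by
      rintro rfl
      obtain ⟨l, hl⟩ := hne ⟨Bigᶜ, h3⟩
      have := hκ l hl
      rw [hslice_univ, G.top] at this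
      omega
    unfold compL
    simp only [hAne, if_false, zero_add]
    apply Nat.eq_zero_of_le_zero
    exact Finset.sup_le fun l hl => (hκ l hl).le
  · intro Q C _ kk αα μ hμ hsum
    obtain ⟨S, hS, hSx⟩ := greedy T hT hTpos (fun c => (kk c).1.1) (fun c => (kk c).1.2) αα μ hμ
      hsum (ε / 2) N hN
    have hin := fun l : Λ => G.junta Q C (fun c => (kk c).2 l) (fun c u => αα c (l, u)) μ hμ hsum
    choose Ωi hΩi hΩx using hin
    set Ω1 : Finset ((Λ × U) × Q) :=
      S.biUnion (fun p => univ.image (fun u : U => ((p.1, u), p.2 (p.1, u)))) with hΩ1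
    set Ω2 : Finset ((Λ × U) × Q) :=
      univ.biUnion (fun l : Λ => (Ωi l).image (fun p => ((l, p.1), p.2))) with hΩ2
    refine ⟨Ω1 ∪ Ω2, ?_, ?_⟩
    · refine (Finset.card_union_le _ _).trans (add_le_add ?_ ?_)
      · refine (Finset.card_biUnion_le_card_mul _ _ (Fintype.card U) fun p _ => ?_).trans
          (Nat.mul_le_mul_right _ hS)
        exact Finset.card_image_le.trans (by simp)
      · refine (Finset.card_biUnion_le_card_mul _ _ D' fun l _ => ?_).trans ?_
        · exact Finset.card_image_le.trans (hΩi l)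
        · rw [Finset.card_univ, hT]
    · intro x
      have hTr : (0 : ℝ) < T := by exact_mod_cast hTpos
      have hpt : ∀ c, (if compL T ℓ (kk c) (agrO (Ω1 ∪ Ω2) x (αα c)) + 2 ≤
            compL T ℓ (kk c) (agr x (αα c)) then μ c else 0) ≤
          (if αα c = x ∧ ¬ (∃ l ∈ (kk c).1.1, (l, αα c) ∈ S) then μ c else 0) +
          ∑ l : Λ, (if ℓ ((kk c).2 l) (agrO (Ωi l) (fun u => x (l, u)) (fun u => αα c (l, u))) + 2 ≤
            ℓ ((kk c).2 l) (agr (fun u => x (l, u)) (fun u => αα c (l, u))) then μ c else 0) := by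
        intro c
        have hnn1 : 0 ≤ (if αα c = x ∧ ¬ (∃ l ∈ (kk c).1.1, (l, αα c) ∈ S) then μ c else 0) := by
          split_ifs
          · exact hμ c
          · exact le_rfl
        have hnn2 : ∀ l : Λ, 0 ≤ (if ℓ ((kk c).2 l)
            (agrO (Ωi l) (fun u => x (l, u)) (fun u => αα c (l, u))) + 2 ≤
            ℓ ((kk c).2 l) (agr (fun u => x (l, u)) (fun u => αα c (l, u))) then μ c else 0) := by
          intro l
          split_ifs
          · exact hμ c
          · exact le_rfl
        have hnn3 := Finset.sum_nonneg (s := univ) fun l _ => hnn2 l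
        by_cases hbad : compL T ℓ (kk c) (agrO (Ω1 ∪ Ω2) x (αα c)) + 2 ≤
            compL T ℓ (kk c) (agr x (αα c))
        swap
        · rw [if_neg hbad]; linarith
        rw [if_pos hbad]
        by_cases hA : agr x (αα c) = univ
        · have hx : αα c = x := by
            funext p
            have : p ∈ agr x (αα c) := hA ▸ Finset.mem_univ p
            exact ((mem_agr _ _ _).1 this).symm
          have hnf : ¬ (∃ l ∈ (kk c).1.1, (l, αα c) ∈ S) := by
            rintro ⟨l, hl, hlS⟩
            rw [hA, htop] at hbad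
            have h5 : slice (agrO (Ω1 ∪ Ω2) x (αα c)) l = univ := by
              refine Finset.eq_univ_of_forall fun u => ?_
              rw [mem_slice, mem_agrO]
              refine ⟨by rw [hx], Finset.mem_union_left _ ?_⟩
              rw [hΩ1, Finset.mem_biUnion]
              exact ⟨(l, αα c), hlS, Finset.mem_image.2 ⟨u, Finset.mem_univ _, rfl⟩⟩
            have h6 : h ≤ compL T ℓ (kk c) (agrO (Ω1 ∪ Ω2) x (αα c)) := by
              unfold compL
              refine le_trans ?_ (Nat.le_add_left _ _)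
              refine le_trans ?_ (Finset.le_sup (f := fun l => ℓ ((kk c).2 l)
                (slice (agrO (Ω1 ∪ Ω2) x (αα c)) l)) hl)
              simp only [h5, G.top]; exact le_rfl
            omega
          rw [if_pos ⟨hx, hnf⟩]; linarith
        · obtain ⟨l, hl, hleq⟩ := Finset.exists_mem_eq_sup _ (hne (kk c).1)
            (fun l => ℓ ((kk c).2 l) (slice (agr x (αα c)) l))
          have h7 : compL T ℓ (kk c) (agr x (αα c)) = ℓ ((kk c).2 l) (slice (agr x (αα c)) l) := by
            unfold compL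
            rw [if_neg hA, zero_add, hleq]
          have h8 : slice (agr x (αα c)) l = agr (fun u => x (l, u)) (fun u => αα c (l, u)) := by
            ext u; simp
          have h9 : ℓ ((kk c).2 l) (agrO (Ωi l) (fun u => x (l, u)) (fun u => αα c (l, u))) ≤
              compL T ℓ (kk c) (agrO (Ω1 ∪ Ω2) x (αα c)) := by
            unfold compL
            refine le_trans ?_ (Nat.le_add_left _ _)
            refine le_trans ?_ (Finset.le_sup (f := fun l => ℓ ((kk c).2 l)
                (slice (agrO (Ω1 ∪ Ω2) x (αα c)) l)) hl)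
            apply G.mono
            intro u hu
            rw [mem_agrO] at hu
            rw [mem_slice, mem_agrO]
            refine ⟨hu.1, Finset.mem_union_right _ ?_⟩
            rw [hΩ2, Finset.mem_biUnion]
            exact ⟨l, Finset.mem_univ _, Finset.mem_image.2 ⟨(u, αα c (l, u)), hu.2, rfl⟩⟩
          have h10 : ℓ ((kk c).2 l) (agrO (Ωi l) (fun u => x (l, u)) (fun u => αα c (l, u))) + 2 ≤
              ℓ ((kk c).2 l) (agr (fun u => x (l, u)) (fun u => αα c (l, u))) := by
            rw [← h8, ← h7]; omega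
          have h11 := Finset.single_le_sum (s := univ) (fun l _ => hnn2 l) (Finset.mem_univ l)
          simp only [if_pos h10] at h11
          linarith
      refine (Finset.sum_le_sum fun c _ => hpt c).trans ?_
      rw [Finset.sum_add_distrib, Finset.sum_comm]
      have h12 : ∑ l : Λ, ∑ c, (if ℓ ((kk c).2 l)
            (agrO (Ωi l) (fun u => x (l, u)) (fun u => αα c (l, u))) + 2 ≤
            ℓ ((kk c).2 l) (agr (fun u => x (l, u)) (fun u => αα c (l, u))) then μ c else 0)
            ≤ ∑ _l : Λ, ε / 2 / (2 * T) :=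
        Finset.sum_le_sum fun l _ => hΩx l _
      rw [Finset.sum_const, Finset.card_univ, hT, nsmul_eq_mul] at h12
      have h13 : ((2 * T : ℕ) : ℝ) * (ε / 2 / (2 * T)) = ε / 2 := by
        push_cast; field_simp
      have h14 : ∑ c, (if αα c = x ∧ ¬ (∃ l ∈ (kk c).1.1, (l, αα c) ∈ S) then μ c else 0)
          ≤ ε / 2 := by convert hSx x
      linarith

theorem exists_good (a : ℕ) : ∀ (ρ : ℕ) (ε : ℝ), 0 < ε →
    ∃ (U I : Type) (_ : Fintype U) (_ : Fintype I) (_ : Nonempty I) (ℓ : I → Finset U → ℕ)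
      (D D' : ℕ), Good (a + 1) D D' ε U I ℓ ∧ Fintype.card U ≤ 2 ^ a * D ∧ ρ * D' < D := by
  induction a with
  | zero =>
    intro ρ ε hε
    refine ⟨Unit, Unit, inferInstance, inferInstance, inferInstance, fun _ A => A.card, 1, 0,
      ⟨fun _ A B hAB => Finset.card_le_card hAB, fun _ => by simp, fun A hA => ⟨(), by omega⟩, ?_⟩,
      by simp, by simp⟩
    intro Q C _ kk αα μ hμ hsum
    refine ⟨∅, by simp, fun x => ?_⟩
    have : ∀ c, ¬ ((agrO (∅ : Finset (Unit × Q)) x (αα c)).card + 2 ≤ (agr x (αα c)).card) := by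
      intro c
      have : (agr x (αα c)).card ≤ 1 := (Finset.card_le_univ _).trans (by simp)
      omega
    simp only [this, if_false, Finset.sum_const_zero]
    exact hε.le
  | succ a ih =>
    intro ρ ε hε
    obtain ⟨N, hN⟩ := exists_nat_gt (4 / ε)
    have hN' : 1 < (N : ℝ) * (ε / 2 / 2) := by
      rw [div_lt_iff₀ hε] at hN
      linarith
    set T : ℕ := 2 * (ρ * N * 2 ^ a) + 1 with hTdef
    have hTpos : 0 < T := by omega
    have hTr : (0 : ℝ) < T := by exact_mod_cast hTpos
    obtain ⟨U, I, _, _, _, ℓ, D, D', G, hU, hρ⟩ := ih (4 * ρ) (ε / 2 / (2 * T)) (by positivity)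
    refine ⟨Fin (2 * T) × U, {L : Finset (Fin (2 * T)) // T ≤ L.card} × (Fin (2 * T) → I),
      inferInstance, inferInstance, ⟨(⟨univ, by simp; omega⟩, fun _ => Classical.arbitrary I)⟩,
      compL T ℓ, T * D, N * Fintype.card U + 2 * T * D',
      G.comp T N (by simp) hTpos (by omega) hN', ?_, ?_⟩
    · rw [Fintype.card_prod, Fintype.card_fin, pow_succ]
      calc 2 * T * Fintype.card U ≤ 2 * T * (2 ^ a * D) := Nat.mul_le_mul_left _ hU
        _ = 2 ^ a * 2 * (T * D) := by ring
    · have h1 : ρ * N * Fintype.card U ≤ ρ * N * (2 ^ a * D) := Nat.mul_le_mul_left _ hU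
      have h2 : T * (4 * ρ * D') < T * D := Nat.mul_lt_mul_of_pos_left hρ hTpos
      have h3 : 2 * (ρ * N * 2 ^ a) * D ≤ T * D := Nat.mul_le_mul_right _ (by omega)
      nlinarith

end Crest.Agent.R71
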