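import Mathlib
import Crest.Prelude.Def_Polar
import Crest.Agent.R71.Sys

set_option autoImplicit false

namespace Crest.Agent.R71

open Finset
open Classical
open Crest.AnalysisR

lemma count_agree {U Q : Type} [Fintype U] [Fintype Q] [Nonempty Q] (x0 : U → Q) (D : ℕ) :
    (univ.filter (fun y : U → Q => D ≤ (agr y x0).card)).card * Fintype.card Q ^ D ≤
      2 ^ Fintype.card U * Fintype.card Q ^ Fintype.card U := by
  set q := Fintype.card Q with hq
  have hq1 : 1 ≤ q := Fintype.card_pos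
  set P : Finset U → Finset (U → Q) := fun A =>
    Fintype.piFinset (fun u => if u ∈ A then {x0 u} else univ) with hP
  have hsub : univ.filter (fun y : U → Q => D ≤ (agr y x0).card) ⊆
      (univ.filter (fun A : Finset U => D ≤ A.card)).biUnion P := by
    intro y hy
    rw [Finset.mem_biUnion]
    refine ⟨agr y x0, by simpa using hy, ?_⟩
    rw [hP, Fintype.mem_piFinset]
    intro u
    split_ifs with h
    · simpa using h
    · simp
  have hPc : ∀ A : Finset U, D ≤ A.card → (P A).card * q ^ D ≤ q ^ Fintype.card U := by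
    intro A hA
    have h1 : (P A).card = ∏ u, (if u ∈ A then 1 else q) := by
      rw [hP, Fintype.card_piFinset]
      refine Finset.prod_congr rfl fun u _ => ?_
      split_ifs <;> simp [hq]
    have h2 : q ^ A.card = ∏ u, (if u ∈ A then q else 1) := by
      rw [← Finset.prod_filter]; simp
    calc (P A).card * q ^ D ≤ (P A).card * q ^ A.card :=
          Nat.mul_le_mul_left _ (Nat.pow_le_pow_right hq1 hA)
      _ = ∏ _u : U, q := by
          rw [h1, h2, ← Finset.prod_mul_distrib]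
          refine Finset.prod_congr rfl fun u _ => ?_
          split_ifs <;> simp
      _ = q ^ Fintype.card U := by simp
  calc _ ≤ ((univ.filter (fun A : Finset U => D ≤ A.card)).biUnion P).card * q ^ D :=
        Nat.mul_le_mul_right _ (Finset.card_le_card hsub)
    _ ≤ (∑ A ∈ univ.filter (fun A : Finset U => D ≤ A.card), (P A).card) * q ^ D :=
        Nat.mul_le_mul_right _ Finset.card_biUnion_le
    _ = ∑ A ∈ univ.filter (fun A : Finset U => D ≤ A.card), (P A).card * q ^ D := by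
        rw [Finset.sum_mul]
    _ ≤ ∑ _A ∈ univ.filter (fun A : Finset U => D ≤ A.card), q ^ Fintype.card U :=
        Finset.sum_le_sum fun A hA => hPc A (Finset.mem_filter.1 hA).2
    _ ≤ ∑ _A : Finset U, q ^ Fintype.card U :=
        Finset.sum_le_sum_of_subset (Finset.subset_univ _)
    _ = 2 ^ Fintype.card U * q ^ Fintype.card U := by simp

lemma cover_lower {U Q Z : Type} [Fintype U] [Fintype Q] [Nonempty Q] (D : ℕ) (t : Finset Z)
    (g : (U → Q) → Z) (hg : ∀ x, g x ∈ t) (hsep : ∀ x y, g x = g y → D ≤ (agr y x).card) :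
    Fintype.card Q ^ D ≤ t.card * 2 ^ Fintype.card U := by
  set q := Fintype.card Q with hq
  have hq1 : 0 < q := Fintype.card_pos
  have h1 : q ^ Fintype.card U = ∑ z ∈ t, (univ.filter (fun x => g x = z)).card := by
    rw [← Finset.card_eq_sum_card_fiberwise (f := g) (s := univ) (t := t) (fun x _ => hg x)]
    simp [hq]
  have h2 : ∀ z, (univ.filter (fun x => g x = z)).card * q ^ D ≤
      2 ^ Fintype.card U * q ^ Fintype.card U := by
    intro z
    rcases (univ.filter (fun x => g x = z)).eq_empty_or_nonempty with h | ⟨x0, hx0⟩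
    · rw [h]; simp
    · refine le_trans (Nat.mul_le_mul_right _ (Finset.card_le_card ?_)) (count_agree x0 D)
      intro y hy
      simp only [Finset.mem_filter, Finset.mem_univ, true_and] at hx0 hy ⊢
      exact hsep x0 y (hx0.trans hy.symm)
  have h3 : q ^ Fintype.card U * q ^ D ≤ t.card * (2 ^ Fintype.card U * q ^ Fintype.card U) := by
    calc q ^ Fintype.card U * q ^ D = ∑ z ∈ t, (univ.filter (fun x => g x = z)).card * q ^ D := by
          rw [h1, Finset.sum_mul]
      _ ≤ ∑ _z ∈ t, 2 ^ Fintype.card U * q ^ Fintype.card U := Finset.sum_le_sum fun z _ => h2 z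
      _ = _ := by simp
  have h4 : 0 < q ^ Fintype.card U := pow_pos hq1 _
  refine Nat.le_of_mul_le_mul_left ?_ h4
  calc q ^ Fintype.card U * q ^ D ≤ _ := h3
    _ = _ := by ring

lemma exists_body {n : ℕ} {X : Type} [Fintype X] [Nonempty X] (f : X → EuclideanSpace ℝ (Fin n))
    (η : ℝ) (hη : 0 < η) :
    ∃ K : Set (EuclideanSpace ℝ (Fin n)), Convex ℝ K ∧ IsCompact K ∧ (interior K).Nonempty ∧
      (∀ x ∈ K, -x ∈ K) ∧ (∀ x, f x ∈ K) ∧
      ∀ z t, (∀ x, |inner ℝ (f x) z| ≤ t) → t + η * ‖z‖ ≤ 1 → z ∈ polarSet K := by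
  refine ⟨{v | ∀ (z : EuclideanSpace ℝ (Fin n)) (t : ℝ), (∀ x, |inner ℝ (f x) z| ≤ t) →
    inner ℝ v z ≤ t + η * ‖z‖}, ?_, ?_, ?_, ?_, ?_, ?_⟩
  · intro v hv w hw a b ha hb hab z t ht
    have h1 := hv z t ht
    have h2 := hw z t ht
    rw [inner_add_left, real_inner_smul_left, real_inner_smul_left]
    calc a * inner ℝ v z + b * inner ℝ w z ≤ a * (t + η * ‖z‖) + b * (t + η * ‖z‖) := by gcongr
      _ = t + η * ‖z‖ := by rw [← add_mul, hab, one_mul]
  · apply Metric.isCompact_of_isClosed_isBounded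
    · simp only [Set.ofPred_forall]
      refine isClosed_iInter fun z => isClosed_iInter fun t => isClosed_iInter fun _ => ?_
      exact isClosed_le (by fun_prop) continuous_const
    · rw [isBounded_iff_forall_norm_le]
      refine ⟨∑ x, ‖f x‖ + η, fun v hv => ?_⟩
      have h1 := hv v ((∑ x, ‖f x‖) * ‖v‖) (fun x => by
        refine (abs_real_inner_le_norm _ _).trans ?_
        exact mul_le_mul_of_nonneg_right
          (Finset.single_le_sum (f := fun x => ‖f x‖) (fun _ _ => norm_nonneg _)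
            (Finset.mem_univ x)) (norm_nonneg _))
      rw [real_inner_self_eq_norm_sq] at h1
      have h2 : 0 ≤ ∑ x, ‖f x‖ := Finset.sum_nonneg fun _ _ => norm_nonneg _
      by_contra h3
      push Not at h3
      have h4 : 0 < ‖v‖ := by linarith
      nlinarith
  · refine ⟨0, mem_interior_iff_mem_nhds.2 (Filter.mem_of_superset (Metric.ball_mem_nhds 0 hη) ?_)⟩
    intro v hv z t ht
    have h1 : 0 ≤ t := (abs_nonneg _).trans (ht (Classical.arbitrary X))
    have h2 : ‖v‖ < η := by simpa using hv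
    have h3 := real_inner_le_norm v z
    have h4 : ‖v‖ * ‖z‖ ≤ η * ‖z‖ := mul_le_mul_of_nonneg_right h2.le (norm_nonneg _)
    linarith
  · intro v hv z t ht
    have := hv (-z) t (fun x => by rw [inner_neg_right, abs_neg]; exact ht x)
    rw [inner_neg_right, norm_neg] at this
    rw [inner_neg_left]; exact this
  · intro x z t ht
    have h1 := (le_abs_self _).trans (ht x)
    have h2 : 0 ≤ η * ‖z‖ := by positivity
    linarith
  · intro z t ht h1 v hv
    exact (hv z t ht).trans h1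

lemma sum_abs_le_of_polar {n : ℕ} {y : EuclideanSpace ℝ (Fin n)}
    (hy : y ∈ polarSet {x : EuclideanSpace ℝ (Fin n) | ∀ i, |x i| ≤ 1}) : ∑ i, |y i| ≤ 1 := by
  have := hy (WithLp.toLp 2 (fun i => if 0 ≤ y i then (1 : ℝ) else -1)) (fun i => by
    dsimp only
    split_ifs <;> simp)
  refine le_trans (le_of_eq ?_) this
  rw [PiLp.inner_apply]
  refine Finset.sum_congr rfl fun i _ => ?_
  simp only [RCLike.inner_apply, conj_trivial]
  split_ifs with h
  · simp [abs_of_nonneg h]
  · simp [abs_of_neg (not_le.1 h)]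

lemma norm_le_sum_abs {n : ℕ} (y : EuclideanSpace ℝ (Fin n)) : ‖y‖ ≤ ∑ i, |y i| := by
  rw [EuclideanSpace.norm_eq]
  apply Real.sqrt_le_iff.2
  refine ⟨Finset.sum_nonneg fun _ _ => abs_nonneg _, ?_⟩
  simp only [Real.norm_eq_abs]
  exact Finset.sum_sq_le_sq_sum_of_nonneg fun _ _ => abs_nonneg _

/-- the pattern of a word on a list of (position, letter) pairs -/
def pat {U Q : Type} {D' : ℕ} (ω : Fin D' → Option (U × Q)) (x : U → Q) : Fin D' → Prop :=
  fun i => ∃ p, ω i = some p ∧ x p.1 = p.2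

lemma Good.osc {h D D' : ℕ} {ε : ℝ} {U I : Type} [Fintype U] {ℓ : I → Finset U → ℕ}
    (G : Good h D D' ε U I ℓ) {Q C : Type} [Fintype C] (kk : C → I) (αα : C → U → Q)
    (y : C → ℝ) (hy : ∑ c, |y c| ≤ 1) :
    ∃ ω : Fin D' → Option (U × Q), ∀ x x' : U → Q, pat ω x = pat ω x' →
      |∑ c, (ℓ (kk c) (agr x (αα c)) : ℝ) * y c - ∑ c, (ℓ (kk c) (agr x' (αα c)) : ℝ) * y c| ≤
        1 + 2 * h * ε := by
  obtain ⟨Ω, hΩ, hx⟩ := G.junta Q C kk αα (fun c => |y c|) (fun c => abs_nonneg _) hy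
  refine ⟨fun i => Ω.toList[i.1]?, fun x x' hp => ?_⟩
  have hle : ∀ k A, ℓ k A ≤ h := fun k A => by
    rw [← G.top k]; exact G.mono k (Finset.subset_univ _)
  have h1 : ∀ p ∈ Ω, x p.1 = p.2 ↔ x' p.1 = p.2 := by
    intro p hp'
    obtain ⟨i, hi⟩ := List.mem_iff_getElem?.1 (Finset.mem_toList.2 hp')
    have hi' : i < D' := by
      obtain ⟨h2, -⟩ := List.getElem?_eq_some_iff.1 hi
      rw [Finset.length_toList] at h2
      omega
    have h3 := congrFun hp ⟨i, hi'⟩
    simp only [pat, hi, Option.some.injEq, exists_eq_left', eq_iff_iff] at h3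
    exact h3
  have h2 : ∀ c, agrO Ω x (αα c) = agrO Ω x' (αα c) := by
    intro c
    ext u
    simp only [mem_agrO]
    constructor
    · rintro ⟨h3, h4⟩; exact ⟨(h1 _ h4).1 h3, h4⟩
    · rintro ⟨h3, h4⟩; exact ⟨(h1 _ h4).2 h3, h4⟩
  have h3 : ∀ (z : U → Q) c, ℓ (kk c) (agrO Ω z (αα c)) ≤ ℓ (kk c) (agr z (αα c)) := by
    intro z c
    apply G.mono
    intro u hu
    rw [mem_agrO] at hu
    rw [mem_agr]; exact hu.1
  have h4 : ∀ c, |(ℓ (kk c) (agr x (αα c)) : ℝ) * y c - (ℓ (kk c) (agr x' (αα c)) : ℝ) * y c| ≤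
      |y c| + h * (if ℓ (kk c) (agrO Ω x (αα c)) + 2 ≤ ℓ (kk c) (agr x (αα c)) then |y c| else 0)
        + h * (if ℓ (kk c) (agrO Ω x' (αα c)) + 2 ≤ ℓ (kk c) (agr x' (αα c)) then |y c| else 0) := by
    intro c
    rw [← sub_mul, abs_mul]
    have h5 := h3 x c
    have h6 := h3 x' c
    have h7 := hle (kk c) (agr x (αα c))
    have h8 := hle (kk c) (agr x' (αα c))
    have h9 : |(ℓ (kk c) (agr x (αα c)) : ℝ) - (ℓ (kk c) (agr x' (αα c)) : ℝ)| ≤ h := by
      have h7' : (ℓ (kk c) (agr x (αα c)) : ℝ) ≤ h := by exact_mod_cast h7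
      have h8' : (ℓ (kk c) (agr x' (αα c)) : ℝ) ≤ h := by exact_mod_cast h8
      have h10 : (0 : ℝ) ≤ (ℓ (kk c) (agr x (αα c)) : ℝ) := Nat.cast_nonneg _
      have h11 : (0 : ℝ) ≤ (ℓ (kk c) (agr x' (αα c)) : ℝ) := Nat.cast_nonneg _
      rw [abs_le]; constructor <;> linarith
    have h12 := mul_le_mul_of_nonneg_right h9 (abs_nonneg (y c))
    have h13 : (0 : ℝ) ≤ h * |y c| := by positivity
    have h14 := abs_nonneg (y c)
    split_ifs with hb1 hb2 hb2
    · linarith
    · linarith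
    · linarith
    · rw [h2 c] at hb1 h5
      have h15 : |(ℓ (kk c) (agr x (αα c)) : ℝ) - (ℓ (kk c) (agr x' (αα c)) : ℝ)| ≤ 1 := by
        have h16 : ℓ (kk c) (agr x (αα c)) ≤ ℓ (kk c) (agr x' (αα c)) + 1 := by omega
        have h17 : ℓ (kk c) (agr x' (αα c)) ≤ ℓ (kk c) (agr x (αα c)) + 1 := by omega
        have h16' : (ℓ (kk c) (agr x (αα c)) : ℝ) ≤ ℓ (kk c) (agr x' (αα c)) + 1 := by
          exact_mod_cast h16
        have h17' : (ℓ (kk c) (agr x' (αα c)) : ℝ) ≤ ℓ (kk c) (agr x (αα c)) + 1 := by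
          exact_mod_cast h17
        rw [abs_le]; constructor <;> linarith
      have := mul_le_mul_of_nonneg_right h15 (abs_nonneg (y c))
      linarith
  rw [← Finset.sum_sub_distrib]
  refine (Finset.abs_sum_le_sum_abs _ _).trans ((Finset.sum_le_sum fun c _ => h4 c).trans ?_)
  rw [Finset.sum_add_distrib, Finset.sum_add_distrib, ← Finset.mul_sum, ← Finset.mul_sum]
  have h18 := mul_le_mul_of_nonneg_left (hx x) (Nat.cast_nonneg (α := ℝ) h)
  have h19 := mul_le_mul_of_nonneg_left (hx x') (Nat.cast_nonneg (α := ℝ) h)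
  linarith

end Crest.Agent.R71
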