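import Mathlib
import Crest.Prelude.Def_Polar
import Crest.Agent.R71.Geom

set_option autoImplicit false

namespace Crest.Agent.R71

open Finset
open Classical
open Pointwise Crest.AnalysisR

/-- The dual covering: the unit ball of the polar of the cube is covered by few translates. -/
lemma dual_cover {h D D' : ℕ} {a : ℝ} (ha : 1 ≤ a) {U I : Type} [Fintype U]
    {ℓ : I → Finset U → ℕ} (G : Good h D D' (1 / (48 * a)) U I ℓ) (hh : 24 * a ≤ h)
    {Q : Type} [Fintype Q] [Nonempty Q] {n : ℕ} (kk : Fin n → I) (αα : Fin n → U → Q)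
    (f : (U → Q) → EuclideanSpace ℝ (Fin n))
    (hf : ∀ x i, f x i = 3 / h * (ℓ (kk i) (agr x (αα i)) : ℝ))
    (K : Set (EuclideanSpace ℝ (Fin n)))
    (hK : ∀ z t, (∀ x, |inner ℝ (f x) z| ≤ t) → t + 1 / (8 * a) * ‖z‖ ≤ 1 → z ∈ polarSet K)
    (R : ℕ) (hR : 12 * a ≤ R) :
    ∃ t₁ : Finset (EuclideanSpace ℝ (Fin n)), 0 < t₁.card ∧
      t₁.card ≤ (Fintype.card U * Fintype.card Q + 1) ^ D' *
        Fintype.card ((Fin D' → Prop) → Finset.Icc (-(R : ℤ)) R) ∧
      polarSet {x : EuclideanSpace ℝ (Fin n) | ∀ i, |x i| ≤ 1} ⊆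
        ⋃ y ∈ t₁, (y +ᵥ a⁻¹ • polarSet K) := by
  have ha0 : 0 < a := by linarith
  have hh0 : (0 : ℝ) < h := by linarith
  set P := polarSet {x : EuclideanSpace ℝ (Fin n) | ∀ i, |x i| ≤ 1} with hP
  have hle : ∀ k A, ℓ k A ≤ h := fun k A => by
    rw [← G.top k]; exact G.mono k (Finset.subset_univ _)
  have hinner : ∀ x (y : EuclideanSpace ℝ (Fin n)), inner ℝ (f x) y =
      3 / h * ∑ i, (ℓ (kk i) (agr x (αα i)) : ℝ) * y i := by
    intro x y
    rw [PiLp.inner_apply, Finset.mul_sum]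
    refine Finset.sum_congr rfl fun i _ => ?_
    simp only [RCLike.inner_apply, conj_trivial, hf]
    ring
  have hbound : ∀ x, ∀ y ∈ P, |inner ℝ (f x) y| ≤ 3 := by
    intro x y hy
    have h1 := sum_abs_le_of_polar hy
    rw [hinner, abs_mul, abs_of_pos (by positivity)]
    have h2 : |∑ i, (ℓ (kk i) (agr x (αα i)) : ℝ) * y i| ≤ h := by
      refine (Finset.abs_sum_le_sum_abs _ _).trans ?_
      calc ∑ i, |(ℓ (kk i) (agr x (αα i)) : ℝ) * y i| ≤ ∑ i, h * |y i| := by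
            refine Finset.sum_le_sum fun i _ => ?_
            rw [abs_mul, Nat.abs_cast]
            exact mul_le_mul_of_nonneg_right (by exact_mod_cast hle _ _) (abs_nonneg _)
        _ = h * ∑ i, |y i| := by rw [Finset.mul_sum]
        _ ≤ h * 1 := mul_le_mul_of_nonneg_left h1 hh0.le
        _ = h := mul_one _
    calc 3 / h * |∑ i, (ℓ (kk i) (agr x (αα i)) : ℝ) * y i| ≤ 3 / h * h := by gcongr
      _ = 3 := by field_simp
  have hosc : ∀ y ∈ P, ∃ ω : Fin D' → Option (U × Q), ∀ x x' : U → Q, pat ω x = pat ω x' →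
      |inner ℝ (f x) y - inner ℝ (f x') y| ≤ 1 / (4 * a) := by
    intro y hy
    obtain ⟨ω, hω⟩ := G.osc kk αα (fun i => y i) (sum_abs_le_of_polar hy)
    refine ⟨ω, fun x x' hp => ?_⟩
    rw [hinner, hinner, ← mul_sub, abs_mul, abs_of_pos (by positivity)]
    have h1 := hω x x' hp
    calc _ ≤ 3 / h * (1 + 2 * h * (1 / (48 * a))) := by gcongr
      _ = 3 / h + 1 / (8 * a) := by field_simp; ring
      _ ≤ 3 / (24 * a) + 1 / (8 * a) := by gcongr
      _ = 1 / (4 * a) := by field_simp; ring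
  have hfloor : ∀ x, ∀ y ∈ P, ⌊inner ℝ (f x) y * (4 * a)⌋ ∈ Finset.Icc (-(R : ℤ)) R := by
    intro x y hy
    have h1 := abs_le.1 (hbound x y hy)
    rw [Finset.mem_Icc]
    constructor
    · rw [Int.le_floor]; push_cast; nlinarith [h1.1]
    · have h2 : inner ℝ (f x) y * (4 * a) ≤ ((R : ℤ) : ℝ) := by push_cast; nlinarith [h1.2]
      exact_mod_cast (Int.floor_le _).trans h2
  choose! ω hω using hosc
  let cls : P → (Fin D' → Option (U × Q)) × ((Fin D' → Prop) → Finset.Icc (-(R : ℤ)) R) :=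
    fun y => (ω y.1, fun π =>
      ⟨⌊inner ℝ (f (Function.invFun (pat (ω y.1)) π)) y.1 * (4 * a)⌋, hfloor _ _ y.2⟩)
  have h0P : (0 : EuclideanSpace ℝ (Fin n)) ∈ P := fun v _ => by simp
  have : Nonempty P := ⟨⟨0, h0P⟩⟩
  have : Nonempty (Finset.Icc (-(R : ℤ)) R) := ⟨⟨0, by simp⟩⟩
  refine ⟨univ.image (fun c => (Function.invFun cls c).1), ?_, ?_, ?_⟩
  · rw [Finset.card_pos]
    exact Finset.univ_nonempty.image _
  · refine Finset.card_image_le.trans (le_of_eq ?_)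
    rw [Finset.card_univ, Fintype.card_prod]
    congr 1
    simp
  · intro y hy
    simp only [Set.mem_iUnion]
    set y' : P := Function.invFun cls (cls ⟨y, hy⟩) with hy'
    have hcls : cls y' = cls ⟨y, hy⟩ := Function.invFun_eq ⟨_, rfl⟩
    refine ⟨y'.1, Finset.mem_coe.2 (Finset.mem_image.2 ⟨cls ⟨y, hy⟩, Finset.mem_univ _, rfl⟩), ?_⟩
    rw [Set.mem_vadd_set_iff_neg_vadd_mem, Set.mem_inv_smul_set_iff₀ ha0.ne']
    have hωeq : ω y'.1 = ω y := congrArg Prod.fst hcls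
    have hfl : ∀ π, ⌊inner ℝ (f (Function.invFun (pat (ω y)) π)) y'.1 * (4 * a)⌋ =
        ⌊inner ℝ (f (Function.invFun (pat (ω y)) π)) y * (4 * a)⌋ := by
      intro π
      have := congrArg Subtype.val (congrFun (congrArg Prod.snd hcls) π)
      simp only [cls] at this
      rw [hωeq] at this
      exact this
    refine hK _ (3 / 4) (fun x => ?_) ?_
    · set x₀ := Function.invFun (pat (ω y)) (pat (ω y) x) with hx₀
      have hp : pat (ω y) x₀ = pat (ω y) x := Function.invFun_eq ⟨_, rfl⟩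
      have h1 := hω y hy x x₀ hp.symm
      have h2 := hω y'.1 y'.2 x x₀ (by rw [hωeq]; exact hp.symm)
      have h3 := Int.abs_sub_lt_one_of_floor_eq_floor (hfl (pat (ω y) x))
      rw [← hx₀, ← sub_mul, abs_mul, abs_of_pos (show 0 < 4 * a by positivity)] at h3
      have h4 : |inner ℝ (f x₀) y'.1 - inner ℝ (f x₀) y| ≤ 1 / (4 * a) := by
        rw [le_div_iff₀ (by positivity)]; exact h3.le
      rw [vadd_eq_add, real_inner_smul_right, inner_add_right, inner_neg_right, abs_mul,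
        abs_of_pos ha0]
      have h5 : |-inner ℝ (f x) y'.1 + inner ℝ (f x) y| ≤ 3 * (1 / (4 * a)) := by
        rw [abs_le] at h1 h2 h4 ⊢
        constructor <;> linarith [h1.1, h1.2, h2.1, h2.2, h4.1, h4.2]
      calc a * |-inner ℝ (f x) y'.1 + inner ℝ (f x) y| ≤ a * (3 * (1 / (4 * a))) := by gcongr
        _ = 3 / 4 := by field_simp
    · have h1 : ‖y‖ ≤ 1 := (norm_le_sum_abs y).trans (sum_abs_le_of_polar hy)
      have h2 : ‖y'.1‖ ≤ 1 := (norm_le_sum_abs _).trans (sum_abs_le_of_polar y'.2)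
      have h3 : ‖-y'.1 +ᵥ y‖ ≤ 2 := by
        rw [vadd_eq_add]
        refine (norm_add_le _ _).trans ?_
        rw [norm_neg]; linarith
      rw [norm_smul, Real.norm_eq_abs, abs_of_pos ha0]
      have h4 : 1 / (8 * a) * (a * ‖-y'.1 +ᵥ y‖) ≤ 1 / (8 * a) * (a * 2) := by gcongr
      have h5 : 1 / (8 * a) * (a * 2) = 1 / 4 := by field_simp; ring
      linarith

theorem main (a b : ℝ) (ha : 1 ≤ a) :
    ∃ n : ℕ, 0 < n ∧ ∃ K : Set (EuclideanSpace ℝ (Fin n)),
      Convex ℝ K ∧ IsCompact K ∧ (interior K).Nonempty ∧ (∀ x ∈ K, -x ∈ K) ∧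
      ∃ t₁ : Finset (EuclideanSpace ℝ (Fin n)),
        polarSet {x : EuclideanSpace ℝ (Fin n) | ∀ i, |x i| ≤ 1} ⊆
          ⋃ y ∈ t₁, (y +ᵥ a⁻¹ • polarSet K) ∧
        ∀ t₂ : Finset (EuclideanSpace ℝ (Fin n)),
          K ⊆ ⋃ x ∈ t₂, (x +ᵥ {z : EuclideanSpace ℝ (Fin n) | ∀ i, |z i| ≤ 1}) →
          b * Real.log t₁.card < Real.log t₂.card := by
  have ha0 : 0 < a := by linarith
  obtain ⟨B, hB⟩ := exists_nat_ge b
  obtain ⟨a', ha'⟩ := exists_nat_ge (24 * a)
  obtain ⟨R, hR⟩ := exists_nat_ge (12 * a)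
  obtain ⟨U, I, _, _, _, ℓ, D, D', G, -, hρ⟩ := exists_good a' B (1 / (48 * a)) (by positivity)
  set m := Fintype.card U with hm
  set C₀ := Fintype.card ((Fin D' → Prop) → Finset.Icc (-(R : ℤ)) R) with hC₀
  set q : ℕ := 2 ^ m * ((m + 1) ^ (D' * B) * C₀ ^ B) + 1 with hq
  have hq0 : 0 < q := by omega
  have : Nonempty (Fin q) := ⟨⟨0, hq0⟩⟩
  set n := Fintype.card (I × (U → Fin q)) with hn
  let e : I × (U → Fin q) ≃ Fin n := Fintype.equivFin _
  let kk : Fin n → I := fun i => (e.symm i).1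
  let αα : Fin n → U → Fin q := fun i => (e.symm i).2
  let f : (U → Fin q) → EuclideanSpace ℝ (Fin n) := fun x =>
    WithLp.toLp 2 (fun i => 3 / ((a' + 1 : ℕ) : ℝ) * (ℓ (kk i) (agr x (αα i)) : ℝ))
  have hf : ∀ x i, f x i = 3 / ((a' + 1 : ℕ) : ℝ) * (ℓ (kk i) (agr x (αα i)) : ℝ) := fun _ _ => rfl
  obtain ⟨K, hK1, hK2, hK3, hK4, hK5, hK6⟩ := exists_body f (1 / (8 * a)) (by positivity)
  obtain ⟨t₁, ht1, ht2, ht3⟩ := dual_cover ha G (by push_cast; linarith) kk αα f hf K hK6 R hR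
  refine ⟨n, Fintype.card_pos, K, hK1, hK2, hK3, hK4, t₁, ht3, fun t₂ ht₂ => ?_⟩
  have h1 : ∀ x, ∃ z ∈ t₂, ∀ i, |f x i - z i| ≤ 1 := by
    intro x
    have := ht₂ (hK5 x)
    simp only [Set.mem_iUnion] at this
    obtain ⟨z, hz, h⟩ := this
    rw [Set.mem_vadd_set_iff_neg_vadd_mem] at h
    refine ⟨z, hz, fun i => ?_⟩
    have h' := h i
    rw [vadd_eq_add, PiLp.add_apply, PiLp.neg_apply] at h'
    rwa [sub_eq_neg_add]
  choose g hg1 hg2 using h1
  have h2 : ∀ x y, g x = g y → D ≤ (agr y x).card := by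
    intro x y hxy
    by_contra hlt
    obtain ⟨k, hk⟩ := G.low _ (not_le.1 hlt)
    have h3 := hg2 x (e (k, x))
    have h4 := hg2 y (e (k, x))
    have h5 : agr x x = univ := by ext u; simp
    have h6 : f x (e (k, x)) = 3 := by
      rw [hf]
      simp only [kk, αα, Equiv.symm_apply_apply, h5, G.top]
      field_simp
    have h7 : f y (e (k, x)) = 0 := by
      rw [hf]
      simp only [kk, αα, Equiv.symm_apply_apply, hk]
      simp
    rw [h6, hxy] at h3
    rw [h7] at h4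
    rw [abs_le] at h3 h4
    linarith [h3.1, h3.2, h4.1, h4.2]
  have h3 := cover_lower D t₂ g hg1 h2
  rw [Fintype.card_fin] at h3 ht2
  have h4 : t₁.card ^ B < t₂.card := by
    have h5 : m * q + 1 ≤ (m + 1) * q := by nlinarith
    have h6 : t₁.card ≤ ((m + 1) * q) ^ D' * C₀ :=
      ht2.trans (Nat.mul_le_mul_right _ (Nat.pow_le_pow_left h5 _))
    have h7 : t₁.card ^ B ≤ q ^ (D' * B) * ((m + 1) ^ (D' * B) * C₀ ^ B) := by
      refine (Nat.pow_le_pow_left h6 B).trans (le_of_eq ?_)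
      rw [mul_pow, ← pow_mul, mul_pow]; ring
    have h8 : q ^ (D' * B) * q ≤ q ^ D := by
      rw [← pow_succ]
      exact Nat.pow_le_pow_right hq0 (by rw [mul_comm]; omega)
    have h9 : 0 < q ^ (D' * B) := pow_pos hq0 _
    have h10 : t₁.card ^ B * 2 ^ m < t₂.card * 2 ^ m := by
      calc t₁.card ^ B * 2 ^ m ≤ q ^ (D' * B) * ((m + 1) ^ (D' * B) * C₀ ^ B) * 2 ^ m :=
            Nat.mul_le_mul_right _ h7
        _ = q ^ (D' * B) * (2 ^ m * ((m + 1) ^ (D' * B) * C₀ ^ B)) := by ring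
        _ < q ^ (D' * B) * q := Nat.mul_lt_mul_of_pos_left (by omega) h9
        _ ≤ q ^ D := h8
        _ ≤ _ := h3
    exact Nat.lt_of_mul_lt_mul_right h10
  have h5 : (0 : ℝ) < t₁.card := by exact_mod_cast ht1
  calc b * Real.log t₁.card ≤ B * Real.log t₁.card :=
        mul_le_mul_of_nonneg_right hB (Real.log_natCast_nonneg _)
    _ = Real.log ((t₁.card : ℝ) ^ B) := by rw [Real.log_pow]
    _ < Real.log t₂.card := Real.log_lt_log (by positivity) (by exact_mod_cast h4)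

end Crest.Agent.R71
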